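import Vale.Agent.P256.H201.Loc4
import Vale.Agent.P256.H76.Top

open Vale.Agent.P256

/-- (a) Every hyperbolicity cone in at most four variables, of any degree and with arbitrary
singularities, is a spectrahedral shadow.

(b) In any number of variables: if every irreducible factor `q` of a hyperbolic polynomial `p`
depends only on (at most) four linear forms, i.e. there is a linear map `B` to `ℝ⁴` such that
`q x = q y` whenever `B x = B y`, then the hyperbolicity cone of `p` is a spectrahedral shadow. -/
theorem Vale.Agent.Results.P256.FourVariables.result :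
    (∀ (n : ℕ) (p : MvPolynomial (Fin n) ℝ) (e : Fin n → ℝ), n ≤ 4 →
      IsHyperbolic p e → IsSpectrahedralShadow (hypCone p e)) ∧
    (∀ (n : ℕ) (p : MvPolynomial (Fin n) ℝ) (e : Fin n → ℝ), IsHyperbolic p e →
      (∀ q r : MvPolynomial (Fin n) ℝ, p = q * r → Irreducible q →
        ∃ B : (Fin n → ℝ) →ₗ[ℝ] (Fin 4 → ℝ), ∀ x y, B x = B y →
          MvPolynomial.eval x q = MvPolynomial.eval y q) →
      IsSpectrahedralShadow (hypCone p e)) :=
  ⟨fun _ _ _ hn hp => H201.shadow_le_four hn hp, fun _ _ _ hp h =>
    H76.top (fun _ _ hq => H201.shadow_le_four le_rfl hq) hp h⟩
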