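import Vale.Agent.P256.H186.LocTop2

open Vale.Agent.P256

/-- Let `p` be a hyperbolic polynomial, in any number of variables and of any degree. If every
irreducible factor `q` of `p` with `0 < q e` either depends on at most four linear forms or is of
the form `q x = q' (B x)` with a linear map `B` and a `LocalCone` polynomial `q'`, then the
hyperbolicity cone of `p` is a spectrahedral shadow. `LocalCone`: `q'` is irreducible, its cone
contains no line and each nonzero boundary point of the cone is ordinary, or lies on a clean curved
stratum, or has a strict local pencil (a symmetric matrix of Nash functions near the point,
positive semidefinite on the cone and singular at its smooth boundary points, strict at all limits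
of its kernel vectors), or the cone is a spectrahedron near it. -/
theorem Vale.Agent.Results.P256.LocalPencils.result :
    ∀ (n : ℕ) (p : MvPolynomial (Fin n) ℝ) (e : Fin n → ℝ), IsHyperbolic p e →
      (∀ q r : MvPolynomial (Fin n) ℝ, p = q * r → Irreducible q →
        0 < MvPolynomial.eval e q → GoodFactor q e) →
      IsSpectrahedralShadow (hypCone p e) :=
  fun _ _ _ hp h => H186.loc_top_pos hp h
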