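import Vale.Agent.P256.H186.Mix10

open Vale.Agent.P256

/-- Part 1. Let `D` be any set of directions. The class `Mixed e D` contains the definite Hermitian
determinants and the hyperbolic quadratic forms whose cones contain `D`, and the polynomials
`q (A x)` for which `A` is linear, `q` is hyperbolic with a shadow cone `K(q, A e)` and `A a` is a
sum of rank one vectors of `K(q, A e)` for all `a` in `D`; it is closed under products and under
derivatives in directions of `D`. Every polynomial of the class is hyperbolic and its
hyperbolicity cone is a spectrahedral shadow.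

Part 2, an unconditional special case. Let `p` be a product of definite Hermitian determinants and
hyperbolic quadratic forms. Every nonzero mixed derivative of `p`, of any order and in any
directions of the closed hyperbolicity cone of `p`, is hyperbolic and its hyperbolicity cone is a
spectrahedral shadow. -/
theorem Vale.Agent.Results.P256.MixedDerivatives.result :
    (∀ (n : ℕ) (e : Fin n → ℝ) (D : Set (Fin n → ℝ)) (p : MvPolynomial (Fin n) ℝ),
      Mixed e D p → IsHyperbolic p e ∧ IsSpectrahedralShadow (hypCone p e)) ∧
    ∀ (n r : ℕ) (e : Fin n → ℝ) (P : Fin r → MvPolynomial (Fin n) ℝ) (as : List (Fin n → ℝ)),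
      (∀ i, HermDet (P i) e ∨ (IsHyperbolic (P i) e ∧ (P i).IsHomogeneous 2)) →
      (∀ a ∈ as, a ∈ hypCone (∏ i, P i) e) → as.foldr polarDeriv (∏ i, P i) ≠ 0 →
      IsHyperbolic (as.foldr polarDeriv (∏ i, P i)) e ∧
        IsSpectrahedralShadow (hypCone (as.foldr polarDeriv (∏ i, P i)) e) :=
  ⟨fun _ _ _ _ h => Mx.mixed_main h,
    fun _ _ _ P as hP has hne => Mx.mixed_prod P hP as has hne⟩
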