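import Vale.Agent.P256.H326.Gen

open Vale.Agent.P256 Vale.Agent.P256.H326

/-- All members of the class `Gen` are hyperbolic and their hyperbolicity cones are spectrahedral
shadows. `Gen` is the smallest class of pairs `(p, e)`, in any number of variables and of any
degree, which contains the hyperbolic polynomials in at most four variables (with any
singularities), the good cubics and the iterated derivatives of polynomials with ordinary
boundary, and which is closed under composition with linear maps, products, changes of the
polynomial or of the direction which do not change the cone, quadratic extensions, norm
extensions `q(|B₁ x|, …, |B_r x|, A x)` (`q` even in the first `r` variables, `B_j e = 0`),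
spectral extensions `q(A x, λ(X x))` (`q` symmetric in the last variables, `λ(X x)` the
eigenvalues of a symmetric matrix pencil `X x` with `X e` a multiple of the identity), and sums
`p₁ + p₂` with `D_z p₁ = D_z p₂ = h`, `h` hyperbolic and `D_z h = 0`, for a common point `z` of
the two cones. -/
theorem Vale.Agent.Results.P256.NormSpectral.result :
    ∀ (n : ℕ) (p : MvPolynomial (Fin n) ℝ) (e : Fin n → ℝ), Gen p e →
      IsHyperbolic p e ∧ IsSpectrahedralShadow (hypCone p e) :=
  fun _ _ _ h => h.main
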